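import Mathlib
import Vale.Agent.Lib.P369.Defs
import Vale.Agent.Lib.P369.Basic

namespace Vale.Agent.Results.P369.A_AdditiveGap

open Vale.Agent.Lib.P369

/-- Entropy photon-number inequality up to the additive error `max η (1-η) * (1/2 - 1/e)`,
deduced from the quantum entropy power inequality.

`n` is the number of modes, `SA SB SC` are the entropies of the two inputs and of the output,
and `NA NB NC` are their entropy photon numbers, i.e. the nonnegative reals with
`g N = S / n`.  The last hypothesis is the entropy power inequality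
`exp (SC / n) ≥ η exp (SA / n) + (1 - η) exp (SB / n)`. -/
theorem result :
    ∀ (n : ℕ) (η SA SB SC NA NB NC : ℝ), 1 ≤ n → 0 ≤ η → η ≤ 1 →
      0 ≤ NA → 0 ≤ NB → 0 ≤ NC →
      gfun NA = SA / n → gfun NB = SB / n → gfun NC = SC / n →
      η * Real.exp (SA / n) + (1 - η) * Real.exp (SB / n) ≤ Real.exp (SC / n) →
      η * NA + (1 - η) * NB - max η (1 - η) * (1 / 2 - Real.exp (-1)) ≤ NC := by
  intro n η SA SB SC NA NB NC _ hη0 hη1 hA hB hC hgA hgB hgC hEPI
  rw [← hgA, ← hgB, ← hgC] at hEPI
  have he : 0 < Real.exp 1 := Real.exp_pos 1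
  have he2 : 2 < Real.exp 1 := by
    have := Real.exp_one_gt_d9
    linarith
  have hinv : Real.exp (-1) = (Real.exp 1)⁻¹ := Real.exp_neg 1
  have hmul : Real.exp 1 * Real.exp (-1) = 1 := by
    rw [hinv, mul_inv_cancel₀ he.ne']
  have hK : 0 ≤ 1 / 2 - Real.exp (-1) := by
    have : Real.exp 1 * Real.exp (-1) ≤ Real.exp 1 * (1 / 2) := by
      rw [hmul]; linarith
    have := le_of_mul_le_mul_left this he
    linarith
  have h1η : 0 ≤ 1 - η := by linarith
  have hm1 : η ≤ max η (1 - η) := le_max_left _ _
  have hm2 : 1 - η ≤ max η (1 - η) := le_max_right _ _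
  have hm0 : 0 ≤ max η (1 - η) := le_trans hη0 hm1
  -- lower and upper bounds for exp (g t) - e t
  have hlA := one_add_mul_le_exp_gfun hA
  have hlB := one_add_mul_le_exp_gfun hB
  have huA := exp_gfun_le hA
  have huB := exp_gfun_le hB
  by_cases hcase : NA ≤ NC ∧ NB ≤ NC
  · obtain ⟨h1, h2⟩ := hcase
    have h3 : η * NA + (1 - η) * NB ≤ NC := by nlinarith
    have h4 : 0 ≤ max η (1 - η) * (1 / 2 - Real.exp (-1)) := mul_nonneg hm0 hK
    linarith
  · -- it suffices to prove the inequality multiplied by e
    suffices hsuff : Real.exp 1 * (η * NA + (1 - η) * NB) -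
        max η (1 - η) * (Real.exp 1 / 2 - 1) ≤ Real.exp 1 * NC by
      have e1 : Real.exp 1 * (η * NA + (1 - η) * NB - max η (1 - η) * (1 / 2 - Real.exp (-1))) =
          Real.exp 1 * (η * NA + (1 - η) * NB) -
            max η (1 - η) * (Real.exp 1 / 2 - Real.exp 1 * Real.exp (-1)) := by
        ring
      rw [hmul] at e1
      have : Real.exp 1 * (η * NA + (1 - η) * NB - max η (1 - η) * (1 / 2 - Real.exp (-1))) ≤
          Real.exp 1 * NC := by
        rw [e1]; exact hsuff
      exact le_of_mul_le_mul_left this he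
    have hK' : 0 ≤ Real.exp 1 / 2 - 1 := by linarith
    rcases le_total NB NA with hBA | hAB
    · -- NB ≤ NA, hence NC < NA
      have hCA : NC ≤ NA := by
        by_contra hcon
        rw [not_le] at hcon
        exact hcase ⟨hcon.le, le_trans hBA hcon.le⟩
      have hmono := exp_gfun_sub_mono hC hCA
      have hstep : Real.exp 1 * (η * NA + (1 - η) * NB) - (1 - η) * (Real.exp 1 / 2 - 1) ≤
          Real.exp 1 * NC := by
        nlinarith
      have : (1 - η) * (Real.exp 1 / 2 - 1) ≤ max η (1 - η) * (Real.exp 1 / 2 - 1) :=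
        mul_le_mul_of_nonneg_right hm2 hK'
      linarith
    · -- NA ≤ NB, hence NC < NB
      have hCB : NC ≤ NB := by
        by_contra hcon
        rw [not_le] at hcon
        exact hcase ⟨le_trans hAB hcon.le, hcon.le⟩
      have hmono := exp_gfun_sub_mono hC hCB
      have hstep : Real.exp 1 * (η * NA + (1 - η) * NB) - η * (Real.exp 1 / 2 - 1) ≤
          Real.exp 1 * NC := by
        nlinarith
      have : η * (Real.exp 1 / 2 - 1) ≤ max η (1 - η) * (Real.exp 1 / 2 - 1) :=
        mul_le_mul_of_nonneg_right hm1 hK'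
      linarith

end Vale.Agent.Results.P369.A_AdditiveGap
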